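import Mathlib

/-! P233: conformally flat metrics. -/

open MeasureTheory
open scoped ContDiff RealInnerProductSpace

namespace Vale.Agent.P233

variable {E : Type} [NormedAddCommGroup E] [InnerProductSpace ℝ E] [FiniteDimensional ℝ E]
  [MeasurableSpace E] [BorelSpace E]

/-- derivative along the constant vector `X` -/
noncomputable def dd (X : E) (f : E → ℝ) (x : E) : ℝ := fderiv ℝ f x X

/-- a test function in `Ω` -/
def Test (Ω : Set E) (ψ : E → ℝ) : Prop :=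
  ContDiff ℝ ∞ ψ ∧ HasCompactSupport ψ ∧ tsupport ψ ⊆ Ω

/-- `w` is the weak gradient of `v` in `Ω` -/
def WGrad (Ω : Set E) (v : E → ℝ) (w : E → E) : Prop :=
  ∀ ψ, Test Ω ψ → ∀ X, ∫ y, v y * dd X ψ y = -∫ y, ⟪w y, X⟫ * ψ y

/-- the sectional curvature of the metric `u⁻² |dx|²` at `x` on the plane spanned by the
orthonormal vectors `X`, `Y` -/
noncomputable def sec (u : E → ℝ) (x X Y : E) : ℝ :=
  u x * (dd X (dd X u) x + dd Y (dd Y u) x) - ‖fderiv ℝ u x‖ ^ 2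

/-- the bound `sec ≥ κ` for `v⁻² |dx|²`, divided by `v`, in the sense of distributions in `Ω` -/
def DSec (Ω : Set E) (κ : ℝ) (v : E → ℝ) (w : E → E) : Prop :=
  ∀ ψ, Test Ω ψ → (∀ y, 0 ≤ ψ y) → ∀ X Y : E, ‖X‖ = 1 → ‖Y‖ = 1 → ⟪X, Y⟫ = 0 →
    ∫ y, (‖w y‖ ^ 2 + κ) / v y * ψ y ≤ ∫ y, v y * (dd X (dd X ψ) y + dd Y (dd Y ψ) y)

end Vale.Agent.P233
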