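import Vale.Agent.P233.Defs

/-! P233: mollification preserves the curvature bound. -/

open MeasureTheory Set Metric ContinuousLinearMap
open scoped ContDiff RealInnerProductSpace Convolution

namespace Vale.Agent.P233

variable {E : Type} [NormedAddCommGroup E] [InnerProductSpace ℝ E] [FiniteDimensional ℝ E]
  [MeasurableSpace E] [BorelSpace E] {v φ : E → ℝ}

omit [FiniteDimensional ℝ E] [MeasurableSpace E] [BorelSpace E] in
theorem dd_sm (h : ContDiff ℝ ∞ φ) (X : E) : ContDiff ℝ ∞ (dd X φ) :=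
  (h.fderiv_right (by simp)).clm_apply contDiff_const

omit [FiniteDimensional ℝ E] [MeasurableSpace E] [BorelSpace E] in
theorem dd_cs (h : HasCompactSupport φ) (X : E) : HasCompactSupport (dd X φ) :=
  (h.fderiv ℝ).comp_left (g := fun L : E →L[ℝ] ℝ => L X) rfl

theorem dd_conv (hv : LocallyIntegrable v) (h : ContDiff ℝ ∞ φ) (c : HasCompactSupport φ) (X : E) :
    dd X (v ⋆[lsmul ℝ ℝ, volume] φ) = v ⋆[lsmul ℝ ℝ, volume] dd X φ := by
  ext x
  rw [dd, (c.hasFDerivAt_convolution_right (lsmul ℝ ℝ) hv (h.of_le (by simp)) x).fderiv,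
    convolution_precompR_apply _ hv (c.fderiv ℝ) (h.continuous_fderiv (by simp))]
  rfl

omit [FiniteDimensional ℝ E] [MeasurableSpace E] [BorelSpace E] in
theorem dd_sub (h : ContDiff ℝ ∞ φ) (x X : E) :
    dd X (fun y => φ (x - y)) = fun y => -dd X φ (x - y) := by
  ext t
  have b := ((h.differentiable (by simp) (x - t)).hasFDerivAt.comp t
    ((hasFDerivAt_id t).const_sub x)).fderiv
  rw [dd, show fderiv ℝ (fun y => φ (x - y)) t = _ from b, dd]
  simp

omit [FiniteDimensional ℝ E] [MeasurableSpace E] [BorelSpace E] in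
theorem dd_sub2 (h : ContDiff ℝ ∞ φ) (x X : E) :
    dd X (dd X fun y => φ (x - y)) = fun y => dd X (dd X φ) (x - y) := by
  ext t
  rw [dd_sub h, dd, fderiv_fun_neg, _root_.neg_apply, ← dd, dd_sub (dd_sm h X), neg_neg]

theorem main {Ω K : Set E} {κ ε : ℝ} {w : E → E} (hΩ : IsOpen Ω) (hκ : 0 ≤ κ) (hv : Continuous v)
    (v0 : ∀ y, 0 < v y) (hw : LocallyIntegrable w)
    (hq : LocallyIntegrable fun y => (‖w y‖ ^ 2 + κ) / v y) (h1 : WGrad Ω v w)
    (h2 : DSec Ω κ v w) (hK : IsCompact K) (hKΩ : K ⊆ Ω) (hε : 0 < ε) :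
    ∃ u : E → ℝ, ContDiff ℝ ∞ u ∧ (∀ x, 0 < u x) ∧ (∀ x ∈ K, |u x - v x| ≤ ε) ∧
      ∀ x ∈ K, ∀ X Y : E, ‖X‖ = 1 → ‖Y‖ = 1 → ⟪X, Y⟫ = 0 → κ ≤ sec u x X Y := by
  obtain ⟨τ, τ0, hτ⟩ := hK.exists_cthickening_subset_open hΩ hKΩ
  obtain ⟨σ, σ0, hσ⟩ := Metric.uniformContinuousOn_iff_le.1
    ((hK.cthickening (r := τ)).uniformContinuousOn_of_continuous hv.continuousOn) _ hε
  have m0 := lt_min τ0 σ0
  obtain ⟨b, hb⟩ : ∃ b : ContDiffBump (0 : E), b.rOut = min τ σ :=
    ⟨⟨_, _, half_pos m0, half_lt_self m0⟩, rfl⟩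
  have hL := hv.locallyIntegrable (μ := volume)
  have sm : ContDiff ℝ ∞ (b.normed volume) := b.contDiff_normed
  have cs : HasCompactSupport (b.normed volume) := b.hasCompactSupport_normed
  have bs : ∀ x ∈ K, closedBall x (min τ σ) ⊆ cthickening τ K := fun x hx =>
    (closedBall_subset_closedBall (min_le_left _ _)).trans (closedBall_subset_cthickening hx τ)
  have cx : ∀ (θ : E → ℝ) (x : E), HasCompactSupport θ → HasCompactSupport fun y => θ (x - y) :=
    fun θ x h => h.comp_homeomorph (Homeomorph.subLeft x)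
  have it : ∀ (θ F : E → ℝ) (x : E), Continuous θ → HasCompactSupport θ → LocallyIntegrable F →
      Integrable fun y => F y * θ (x - y) := fun θ F x c h l =>
    l.integrable_smul_right_of_hasCompactSupport (c.comp (by fun_prop)) (cx θ x h)
  have pos : ∀ x, 0 < (v ⋆[lsmul ℝ ℝ, volume] b.normed volume) x := fun x => by
    refine (integral_pos_iff_support_of_nonneg (fun y => mul_nonneg (v0 y).le (b.nonneg_normed _))
      (it _ _ x sm.continuous cs hL)).2 ?_
    refine (measure_ball_pos volume x b.rOut_pos).trans_le (measure_mono fun y hy => ?_)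
    refine mul_ne_zero (v0 y).ne' (Function.mem_support.1 ?_)
    rw [b.support_normed_eq, mem_ball_zero_iff, ← dist_eq_norm, dist_comm]
    exact hy
  refine ⟨v ⋆[lsmul ℝ ℝ, volume] b.normed volume, cs.contDiff_convolution_right _ hL sm, pos,
    fun x hx => ?_, fun x hx X Y hX hY hXY => ?_⟩
  · have d := b.dist_normed_convolution_le (μ := volume) (x₀ := x) (ε := ε)
      hv.aestronglyMeasurable fun y hy => by
      rw [hb] at hy
      exact hσ y (bs x hx (ball_subset_closedBall hy)) x (bs x hx (mem_closedBall_self m0.le))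
        ((mem_ball.1 hy).le.trans (min_le_right _ _))
    rw [← convolution_flip] at d
    refine le_trans (le_of_eq ?_) d
    rw [Real.dist_eq]
    congr 2
    exact integral_congr_ae (.of_forall fun y => by simp [mul_comm])
  have t : Test Ω fun y => b.normed volume (x - y) :=
    ⟨sm.comp (contDiff_const.sub contDiff_id), cx _ x cs, (closure_minimal (fun y hy => by
      have : x - y ∈ Function.support (b.normed volume) := hy
      rw [b.support_normed_eq, mem_ball_zero_iff, hb] at this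
      exact mem_closedBall'.2 (by rw [dist_eq_norm]; exact this.le)) isClosed_closedBall).trans
        ((bs x hx).trans hτ)⟩
  have a2 := h2 _ t (fun y => b.nonneg_normed _) X Y hX hY hXY
  simp only [dd_sub2 sm, mul_add] at a2
  rw [integral_add (it _ _ x (dd_sm (dd_sm sm X) X).continuous (dd_cs (dd_cs cs X) X) hL)
    (it _ _ x (dd_sm (dd_sm sm Y) Y).continuous (dd_cs (dd_cs cs Y) Y) hL)] at a2
  obtain ⟨a, ha⟩ : ∃ a, a = (v ⋆[lsmul ℝ ℝ, volume] b.normed volume) x := ⟨_, rfl⟩
  obtain ⟨p, hp⟩ : ∃ p, p = (InnerProductSpace.toDual ℝ E).symm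
    (fderiv ℝ (v ⋆[lsmul ℝ ℝ, volume] b.normed volume) x) := ⟨_, rfl⟩
  have a0 : 0 < a := ha ▸ pos x
  have a1 := h1 _ t p
  simp only [dd_sub sm, mul_neg, integral_neg, neg_inj] at a1
  have e1 : ∫ y, ⟪w y, p⟫ * b.normed volume (x - y) = ‖p‖ ^ 2 := by
    rw [← a1, ← real_inner_self_eq_norm_sq]
    conv_rhs => rw [hp, InnerProductSpace.toDual_symm_apply, ← hp]
    exact (congrFun (dd_conv hL sm cs p) x).symm
  have e2 : ∫ y, b.normed volume (x - y) = 1 := by
    rw [integral_sub_left_eq_self (b.normed volume) volume x, b.integral_normed]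
  have i1 : Integrable fun y => ⟪w y, p⟫ * b.normed volume (x - y) :=
    it _ _ x sm.continuous cs fun y =>
      let ⟨s, h, k⟩ := hw y
      ⟨s, h, Integrable.inner_const k p⟩
  have i2 := it _ _ x sm.continuous cs hL
  have i3 : Integrable fun y => b.normed volume (x - y) := by
    simpa using it _ (fun _ => 1) x sm.continuous cs (locallyIntegrable_const 1)
  have j := integral_mono (((i1.const_mul (2 / a)).add (i3.const_mul (2 * κ / a))).sub
    (i2.const_mul ((‖p‖ ^ 2 + κ) / a ^ 2))) (it _ _ x sm.continuous cs hq) fun y => by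
    have k : 2 / a * ⟪w y, p⟫ + 2 * κ / a - (‖p‖ ^ 2 + κ) / a ^ 2 * v y ≤
        (‖w y‖ ^ 2 + κ) / v y := by
      have n := sq_nonneg ‖a • w y - v y • p‖
      rw [norm_sub_sq_real, real_inner_smul_left, real_inner_smul_right, norm_smul, norm_smul,
        mul_pow, mul_pow, Real.norm_eq_abs, Real.norm_eq_abs, sq_abs, sq_abs] at n
      have v1 := v0 y
      rw [le_div_iff₀ v1, ← sub_nonneg]
      have : ‖w y‖ ^ 2 + κ - (2 / a * ⟪w y, p⟫ + 2 * κ / a - (‖p‖ ^ 2 + κ) / a ^ 2 * v y) * v y =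
          (a ^ 2 * ‖w y‖ ^ 2 - 2 * (a * (v y * ⟪w y, p⟫)) + v y ^ 2 * ‖p‖ ^ 2 +
            κ * (a - v y) ^ 2) / a ^ 2 := by
        field_simp
        ring
      rw [this]
      exact div_nonneg (add_nonneg n (by positivity)) (by positivity)
    have := mul_le_mul_of_nonneg_right k (b.nonneg_normed (μ := volume) (x - y))
    simp only [Pi.sub_apply, Pi.add_apply]
    linarith
  simp only [Pi.sub_apply, Pi.add_apply] at j
  rw [integral_sub (by exact (i1.const_mul _).add (i3.const_mul _)) (i2.const_mul _),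
    integral_add (i1.const_mul _) (i3.const_mul _), integral_const_mul, integral_const_mul,
    integral_const_mul, e1, e2, show ∫ y, v y * b.normed volume (x - y) = a from ha.symm] at j
  have n : ‖fderiv ℝ (v ⋆[lsmul ℝ ℝ, volume] b.normed volume) x‖ = ‖p‖ := by
    rw [hp, LinearIsometryEquiv.norm_map]
  have c : ∀ Z, dd Z (dd Z (v ⋆[lsmul ℝ ℝ, volume] b.normed volume)) x =
      ∫ y, v y * dd Z (dd Z (b.normed volume)) (x - y) := fun Z => by
    rw [dd_conv hL sm cs, dd_conv hL (dd_sm sm Z) (dd_cs cs Z)]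
    rfl
  rw [sec, c, c, n, ← ha]
  have := mul_le_mul_of_nonneg_left (j.trans a2) a0.le
  have e : a * (2 / a * ‖p‖ ^ 2 + 2 * κ / a * 1 - (‖p‖ ^ 2 + κ) / a ^ 2 * a) = ‖p‖ ^ 2 + κ := by
    field_simp
    ring
  linarith

end Vale.Agent.P233
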